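import Vale.Agent.P103.Final

open scoped Manifold ContDiff
open Vale.Agent.P103

theorem Vale.Agent.Results.P103.A_full.result :
    (∃ (E : Type) (_ : NormedAddCommGroup E) (_ : NormedSpace ℝ E) (_ : FiniteDimensional ℝ E)
      (M : Type) (_ : MetricSpace M) (_ : CompactSpace M) (_ : Nonempty M) (_ : ChartedSpace E M)
      (_ : IsManifold 𝓘(ℝ, E) ∞ M) (f : C(M, M)),
      Module.finrank ℝ E = 7 ∧ Nonempty (M ≃ₜ unitSphere 2 × unitSphere 4 × Circle) ∧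
      ContMDiff 𝓘(ℝ, E) 𝓘(ℝ, E) 1 f ∧ topEntropy f = 0 ∧ Dynamics.coverEntropy f Set.univ = 0 ∧
      HasEigenclass 2 f 3 ∧ 3 ≤ homologySpectralRadius 7 f) ∧ ¬ EntropyConjecture :=
  main
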